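import Vale.Agent.P150.Defs
import Vale.Agent.P150H.Final
import Vale.Agent.P150L.Low

/-! Mixing time of exact logarithmic order and a uniform spectral gap strictly beyond one half. -/

namespace Vale.Agent.Results.P150.Beyond

open Vale.Agent.P150 Filter Topology

theorem result : ∃ ε₀ : ℝ, 0 < ε₀ ∧ ∀ β : ℝ, 0 ≤ β → β < 1 / 2 + ε₀ →
    ∃ C c : ℝ, 0 < c ∧ Tendsto (fun n : ℕ => disorder n {g : Pair n → ℝ |
      ¬ (c * Real.log n ≤ tmix β g ∧ tmix β g ≤ C * Real.log n ∧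
        (∀ t, C * Real.log n ≤ t → ∀ x, tv β g t x ≤ 1 / 4) ∧
        c ≤ gap β g ∧ gap β g ≤ 1)}) atTop (𝓝 0) := by
  refine ⟨1 / 10 ^ 24, by norm_num, fun β h0 h1 => ?_⟩
  obtain ⟨C, c, hc, h2⟩ := Vale.Agent.P150H.main' β h0 h1.le
  have h3 := h2.add (Vale.Agent.P150L.low β h0 (h1.le.trans (by norm_num)))
  rw [add_zero] at h3
  refine ⟨C, min c (1 / 500), lt_min hc (by norm_num), ?_⟩
  refine tendsto_of_tendsto_of_tendsto_of_le_of_le tendsto_const_nhds h3 (fun _ => zero_le)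
    fun n => le_trans (MeasureTheory.measure_mono fun g hg => ?_)
      (MeasureTheory.measure_union_le _ _)
  by_contra hn
  simp only [Set.mem_union, Set.mem_ofPred_eq, not_or, not_not] at hn
  obtain ⟨⟨a1, a2, a3, a4⟩, a5, -⟩ := hn
  exact hg ⟨(mul_le_mul_of_nonneg_right (min_le_right _ _) (Real.log_natCast_nonneg n)).trans a5,
    a1, a2, (min_le_left _ _).trans a3, a4⟩

end Vale.Agent.Results.P150.Beyond
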